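import Vale.Agent.P154.T4.Chk00

/-! # P154 q = 4: kernel check of the closure certificate on `T × T`, part 2 -/

namespace Vale.Agent.P154.T4

open Vale.Agent.Util.Polya Vale.Agent.P154

set_option maxRecDepth 100000

theorem hchk2 : check 152 15 14 cert 2 1 = true := by
  decide +kernel

theorem hchk69 : check 152 15 14 cert 97 8 = true := by
  decide +kernel

theorem hchk14 : check 152 15 14 cert 16 1 = true := by
  decide +kernel

end Vale.Agent.P154.T4
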