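import Vale.Agent.P154.T4.Chk08

/-! # P154 q = 4: kernel check of the closure certificate on `T × T`, part 10 -/

namespace Vale.Agent.P154.T4

open Vale.Agent.Util.Polya Vale.Agent.P154

set_option maxRecDepth 100000

theorem hchk5 : check 152 15 14 cert 5 1 = true := by
  decide +kernel

theorem hchk52 : check 152 15 14 cert 66 1 = true := by
  decide +kernel

theorem hchk17 : check 152 15 14 cert 19 1 = true := by
  decide +kernel

end Vale.Agent.P154.T4
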