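import Vale.Agent.P154.T4.Chk13

/-! # P154 q = 4: kernel check of the closure certificate on `T × T`, part 15 -/

namespace Vale.Agent.P154.T4

open Vale.Agent.Util.Polya Vale.Agent.P154

set_option maxRecDepth 100000

theorem hchk77 : check 152 15 14 cert 121 1 = true := by
  decide +kernel

theorem hchk29 : check 152 15 14 cert 34 1 = true := by
  decide +kernel

theorem hchk72 : check 152 15 14 cert 107 1 = true := by
  decide +kernel

end Vale.Agent.P154.T4
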