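import Vale.Agent.P154.T4.Data
import Vale.Agent.P154.R4.Defs

/-!
# P154 q = 4: values of the expressions of the data file, and splitting of a symmetric sum by degree
-/

namespace Vale.Agent.P154.T4

open Finset Vale.Agent.Util.Polya Vale.Agent.P154

theorem ev_e1E (p : Fin 4 → ℝ) : PE.ev p e1E = e1Q p := by
  simp only [e1E, PE.ev, e1Q]; ring

theorem ev_e2E (p : Fin 4 → ℝ) : PE.ev p e2E = e2Q p := by
  simp only [e2E, PE.ev, e2Q]; ring

theorem ev_e3E (p : Fin 4 → ℝ) : PE.ev p e3E = e3Q p := by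
  simp only [e3E, PE.ev, e3Q]; ring

/-- the value of a list of terms -/
noncomputable def tgR (Z E2 E3 : ℝ) : List (ℤ × ℕ × ℕ × ℕ) → ℝ
  | [] => 0
  | (c, i, j, k) :: L => (c : ℝ) * (Z ^ i * (E2 ^ j * E3 ^ k)) + tgR Z E2 E3 L

theorem ev_tgE (p : Fin 4 → ℝ) (d : ℕ) (L : List (ℤ × ℕ × ℕ × ℕ)) :
    PE.ev p (tgE d L) = tgR (e1Q p) (e2Q p) (e3Q p) L := by
  induction L with
  | nil => simp [tgE, tgR, PE.ev]
  | cons t L ih =>
    obtain ⟨c, i, j, k⟩ := t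
    simp only [tgE, tgR, tE, PE.ev, ev_e1E, ev_e2E, ev_e3E, ih]

theorem ev_sideE (p d : Fin 4 → ℝ) (R0 R2 R3 R22 R4 R23 R222 R33 R24 : ℤ)
    (h : ∀ i, ((4 : ℤ) : ℝ) * p i + ((-1 : ℤ) : ℝ) = d i) :
    PE.ev p (sideE R0 R2 R3 R22 R4 R23 R222 R33 R24) =
      R0 + R2 * (∑ i, d i ^ 2) + R3 * (∑ i, d i ^ 3) + R22 * (∑ i, d i ^ 2) ^ 2
        + R4 * (∑ i, d i ^ 4) + R23 * ((∑ i, d i ^ 2) * ∑ i, d i ^ 3) + R222 * (∑ i, d i ^ 2) ^ 3
        + R33 * (∑ i, d i ^ 3) ^ 2 + R24 * ((∑ i, d i ^ 2) * ∑ i, d i ^ 4) := by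
  simp only [sideE, psE, dE, PE.ev, h, Fin.sum_univ_four]
  ring

theorem sm_append (D : ℕ) (L L' : TL) (x y z w h : ℝ) :
    sm D (L ++ L') x y z w h = sm D L x y z w h + sm D L' x y z w h := by
  induction L with
  | nil => simp [sm]
  | cons t L ih =>
    obtain ⟨c, a, b, c', d⟩ := t
    simp only [List.cons_append, sm, ih]
    ring

theorem sm_homog (D d : ℕ) (L : TL)
    (hL : L.all (fun t => t.2.1 + t.2.2.1 + t.2.2.2.1 + t.2.2.2.2 == d) = true) (x y z w h : ℝ) :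
    sm D L x y z w 1 = sm d L x y z w h := by
  induction L with
  | nil => simp [sm]
  | cons t L ih =>
    obtain ⟨c, a, b, c', e⟩ := t
    simp only [List.all_cons, Bool.and_eq_true, beq_iff_eq] at hL
    have h0 : d - (a + b + c' + e) = 0 := by omega
    simp only [sm, ih hL.2, one_pow, mul_one, h0, pow_zero]

/-- a homogeneous part of the diagonal list, from the packed identity check -/
theorem sm_of_pit (w d : ℕ) (L : TL) (T : List (ℤ × ℕ × ℕ × ℕ))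
    (hd : L.all (fun t => t.2.1 + t.2.2.1 + t.2.2.2.1 + t.2.2.2.2 == d) = true)
    (hp : pit w 15 (smE d L (.v 0) (.v 1) (.v 2) (.v 3) (.v 0)) (tgE d T) = true) (v : Fin 4 → ℝ) :
    sm 14 L (v 0) (v 1) (v 2) (v 3) 1 = tgR (e1Q v) (e2Q v) (e3Q v) T := by
  rw [sm_homog 14 d L hd _ _ _ _ (v 0)]
  have h := ev_eq_of_pit hp v
  rw [ev_smE, ev_tgE] at h
  simpa only [PE.ev] using h

end Vale.Agent.P154.T4
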