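import Mathlib

/-! # P154 q = 4: the minorant `L1` of `1 / Z ^ 1` on `0 < Z ≤ 4` (certificate of helper46), generated -/

namespace Vale.Agent.P154.T4

noncomputable def L1 (z : ℝ) : ℝ :=
  1 - z + z ^ 2 - z ^ 3 + 98499967 / 100000000 * z ^ 4 - 3061969 / 3125000 * z ^ 5 + 44658309 /
    50000000 * z ^ 6 - 7712501 / 12500000 * z ^ 7 + 28460671 / 100000000 * z ^ 8 - 8091027 /
    100000000 * z ^ 9 + 1273331 / 100000000 * z ^ 10 - 42297 / 50000000 * z ^ 11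

noncomputable def g1 (z : ℝ) : ℝ :=
  1500033 / 100000000 - 516959 / 100000000 * z + 866639 / 10000000 * z ^ 2 - 2761661 / 10000000 * z
    ^ 3 + 33239337 / 100000000 * z ^ 4 - 5092411 / 25000000 * z ^ 5 + 213053 / 3125000 * z ^ 6 -
    1188737 / 100000000 * z ^ 7 + 42297 / 50000000 * z ^ 8

theorem L1_fac (z : ℝ) : 1 - L1 z * (1 + z) = z ^ 4 * g1 z := by
  unfold L1 g1
  ring

theorem g1_i0 (z : ℝ) (h1 : -1 ≤ z) (h2 : z ≤ 0) : 0 ≤ g1 z := by
  have hs : 0 ≤ z + 1 := by linarith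
  have ht : 0 ≤ 0 - z := by linarith
  have e : g1 z =
      1 * ((0 - z) ^ 8) + 51823847 / 12500000 * ((z + 1) * (0 - z) ^ 7) + 726381663 / 100000000 *
        ((z + 1) ^ 2 * (0 - z) ^ 6) + 140983261 / 20000000 * ((z + 1) ^ 3 * (0 - z) ^ 5) + 13262941
        / 3125000 * ((z + 1) ^ 4 * (0 - z) ^ 4) + 174472937 / 100000000 * ((z + 1) ^ 5 * (0 - z) ^
        3) + 54286027 / 100000000 * ((z + 1) ^ 6 * (0 - z) ^ 2) + 12517223 / 100000000 * ((z + 1) ^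
        7 * (0 - z)) + 1500033 / 100000000 * ((z + 1) ^ 8) := by
    unfold g1
    ring
  rw [e]
  positivity

theorem g1_i1 (z : ℝ) (h1 : 0 ≤ z) (h2 : z ≤ 1) : 0 ≤ g1 z := by
  have hs : 0 ≤ z := by linarith
  have ht : 0 ≤ 1 - z := by linarith
  have e : g1 z =
      1500033 / 100000000 * ((1 - z) ^ 8) + 2296661 / 20000000 * (z * (1 - z) ^ 7) + 47048601 /
        100000000 * (z ^ 2 * (1 - z) ^ 6) + 97527439 / 100000000 * (z ^ 3 * (1 - z) ^ 5) + 56030441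
        / 50000000 * (z ^ 4 * (1 - z) ^ 4) + 75657687 / 100000000 * (z ^ 5 * (1 - z) ^ 3) +
        30119321 / 100000000 * (z ^ 6 * (1 - z) ^ 2) + 823989 / 12500000 * (z ^ 7 * (1 - z)) + 6161
        / 1000000 * (z ^ 8) := by
    unfold g1
    ring
  rw [e]
  positivity

theorem g1_i2 (z : ℝ) (h1 : 1 ≤ z) (h2 : z ≤ 2) : 0 ≤ g1 z := by
  have hs : 0 ≤ z - 1 := by linarith
  have ht : 0 ≤ 2 - z := by linarith
  have e : g1 z =
      6161 / 1000000 * ((2 - z) ^ 8) + 408211 / 12500000 * ((z - 1) * (2 - z) ^ 7) + 6835753 /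
        100000000 * ((z - 1) ^ 2 * (2 - z) ^ 6) + 8066357 / 100000000 * ((z - 1) ^ 3 * (2 - z) ^ 5)
        + 867489 / 12500000 * ((z - 1) ^ 4 * (2 - z) ^ 4) + 4323977 / 100000000 * ((z - 1) ^ 5 * (2
        - z) ^ 3) + 1653551 / 100000000 * ((z - 1) ^ 6 * (2 - z) ^ 2) + 334551 / 100000000 * ((z -
        1) ^ 7 * (2 - z)) + 29851 / 100000000 * ((z - 1) ^ 8) := by
    unfold g1
    ring
  rw [e]
  positivity

theorem g1_i3 (z : ℝ) (h1 : 2 ≤ z) (h2 : z ≤ 3) : 0 ≤ g1 z := by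
  have hs : 0 ≤ z - 2 := by linarith
  have ht : 0 ≤ 3 - z := by linarith
  have e : g1 z =
      29851 / 100000000 * ((3 - z) ^ 8) + 28613 / 20000000 * ((z - 2) * (3 - z) ^ 7) + 313149 /
        100000000 * ((z - 2) ^ 2 * (3 - z) ^ 6) + 789599 / 100000000 * ((z - 2) ^ 3 * (3 - z) ^ 5)
        + 1336021 / 50000000 * ((z - 2) ^ 4 * (3 - z) ^ 4) + 5206451 / 100000000 * ((z - 2) ^ 5 *
        (3 - z) ^ 3) + 4604299 / 100000000 * ((z - 2) ^ 6 * (3 - z) ^ 2) + 25163 / 1562500 * ((z -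
        2) ^ 7 * (3 - z)) + 537 / 250000 * ((z - 2) ^ 8) := by
    unfold g1
    ring
  rw [e]
  positivity

theorem g1_nonneg (z : ℝ) (hlo : -1 ≤ z) (hhi : z ≤ 3) : 0 ≤ g1 z := by
  rcases le_total z (0) with h | k1
  · exact g1_i0 z hlo h
  rcases le_total z (1) with h | k2
  · exact g1_i1 z k1 h
  rcases le_total z (2) with h | k3
  · exact g1_i2 z k2 h
  exact g1_i3 z k3 hhi

theorem L1_le (Z : ℝ) (h0 : 0 < Z) (h4 : Z ≤ 4) : L1 (Z - 1) * Z ≤ 1 := by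
  have h := L1_fac (Z - 1)
  have hg := g1_nonneg (Z - 1) (by linarith) (by linarith)
  have hz : 0 ≤ (Z - 1) ^ 4 := by positivity
  have e : 1 + (Z - 1) = Z := by ring
  rw [e] at h
  have := mul_nonneg hz hg
  linarith

end Vale.Agent.P154.T4
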