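import Mathlib

/-! # P154 q = 4: the minorant `L2` of `1 / Z ^ 2` on `0 < Z ≤ 4` (certificate of helper46), generated -/

namespace Vale.Agent.P154.T4

noncomputable def L2 (z : ℝ) : ℝ :=
  1 - 2 * z + 3 * z ^ 2 - 4 * z ^ 3 + 247970133 / 50000000 * z ^ 4 - 302893849 / 50000000 * z ^ 5 +
    743725563 / 100000000 * z ^ 6 - 755063053 / 100000000 * z ^ 7 + 498329479 / 100000000 * z ^ 8 -
    945169 / 500000 * z ^ 9 + 37046593 / 100000000 * z ^ 10 - 288779 / 10000000 * z ^ 11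

noncomputable def g2 (z : ℝ) : ℝ :=
  2029867 / 50000000 + 6953583 / 50000000 * z - 28090433 / 100000000 * z ^ 2 - 1012803 / 800000 * z
    ^ 3 + 33508883 / 12500000 * z ^ 4 - 10512421 / 20000000 * z ^ 5 - 19663559 / 12500000 * z ^ 6 +
    29457101 / 25000000 * z ^ 7 - 31271013 / 100000000 * z ^ 8 + 288779 / 10000000 * z ^ 9

theorem L2_fac (z : ℝ) : 1 - L2 z * (1 + z) ^ 2 = z ^ 4 * g2 z := by
  unfold L2 g2
  ring

theorem g2_i0 (z : ℝ) (h1 : -1 ≤ z) (h2 : z ≤ -1 / 2) : 0 ≤ g2 z := by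
  have hs : 0 ≤ z + 1 := by linarith
  have ht : 0 ≤ -1 / 2 - z := by linarith
  have e : g2 z =
      512 * ((-1 / 2 - z) ^ 9) + 5632 * ((z + 1) * (-1 / 2 - z) ^ 8) + 8736092879 / 390625 * ((z +
        1) ^ 2 * (-1 / 2 - z) ^ 7) + 72950009599 / 1562500 * ((z + 1) ^ 3 * (-1 / 2 - z) ^ 6) +
        36646187887 / 625000 * ((z + 1) ^ 4 * (-1 / 2 - z) ^ 5) + 292201554129 / 6250000 * ((z + 1)
        ^ 5 * (-1 / 2 - z) ^ 4) + 37331512121 / 1562500 * ((z + 1) ^ 6 * (-1 / 2 - z) ^ 3) +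
        47432230019 / 6250000 * ((z + 1) ^ 7 * (-1 / 2 - z) ^ 2) + 68270456317 / 50000000 * ((z +
        1) ^ 8 * (-1 / 2 - z)) + 1331156801 / 12500000 * ((z + 1) ^ 9) := by
    unfold g2
    ring
  rw [e]
  positivity

theorem g2_i1 (z : ℝ) (h1 : -1 / 2 ≤ z) (h2 : z ≤ 0) : 0 ≤ g2 z := by
  have hs : 0 ≤ z + 1 / 2 := by linarith
  have ht : 0 ≤ 0 - z := by linarith
  have e : g2 z =
      1331156801 / 12500000 * ((0 - z) ^ 9) + 5514566671 / 10000000 * ((z + 1 / 2) * (0 - z) ^ 8) +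
        6734607057 / 6250000 * ((z + 1 / 2) ^ 2 * (0 - z) ^ 7) + 77593356 / 78125 * ((z + 1 / 2) ^
        3 * (0 - z) ^ 6) + 3256795573 / 6250000 * ((z + 1 / 2) ^ 4 * (0 - z) ^ 5) + 172711571 /
        390625 * ((z + 1 / 2) ^ 5 * (0 - z) ^ 4) + 903872969 / 1562500 * ((z + 1 / 2) ^ 6 * (0 - z)
        ^ 3) + 333996607 / 781250 * ((z + 1 / 2) ^ 7 * (0 - z) ^ 2) + 59168046 / 390625 * ((z + 1 /
        2) ^ 8 * (0 - z)) + 8119468 / 390625 * ((z + 1 / 2) ^ 9) := by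
    unfold g2
    ring
  rw [e]
  positivity

theorem g2_i2 (z : ℝ) (h1 : 0 ≤ z) (h2 : z ≤ 1 / 2) : 0 ≤ g2 z := by
  have hs : 0 ≤ z := by linarith
  have ht : 0 ≤ 1 / 2 - z := by linarith
  have e : g2 z =
      8119468 / 390625 * ((1 / 2 - z) ^ 9) + 86982378 / 390625 * (z * (1 / 2 - z) ^ 8) + 779025919
        / 781250 * (z ^ 2 * (1 / 2 - z) ^ 7) + 3765877403 / 1562500 * (z ^ 3 * (1 / 2 - z) ^ 6) +
        1350513038 / 390625 * (z ^ 4 * (1 / 2 - z) ^ 5) + 19111678203 / 6250000 * (z ^ 5 * (1 / 2 -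
        z) ^ 4) + 1306569139 / 781250 * (z ^ 6 * (1 / 2 - z) ^ 3) + 686310347 / 1250000 * (z ^ 7 *
        (1 / 2 - z) ^ 2) + 1003763567 / 10000000 * (z ^ 8 * (1 / 2 - z)) + 207822713 / 25000000 *
        (z ^ 9) := by
    unfold g2
    ring
  rw [e]
  positivity

theorem g2_i3 (z : ℝ) (h1 : 1 / 2 ≤ z) (h2 : z ≤ 1) : 0 ≤ g2 z := by
  have hs : 0 ≤ z - 1 / 2 := by linarith
  have ht : 0 ≤ 1 - z := by linarith
  have e : g2 z =
      207822713 / 25000000 * ((1 - z) ^ 9) + 2462799833 / 50000000 * ((z - 1 / 2) * (1 - z) ^ 8) +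
        875533733 / 6250000 * ((z - 1 / 2) ^ 2 * (1 - z) ^ 7) + 279992159 / 781250 * ((z - 1 / 2) ^
        3 * (1 - z) ^ 6) + 5620235191 / 6250000 * ((z - 1 / 2) ^ 4 * (1 - z) ^ 5) + 5020335153 /
        3125000 * ((z - 1 / 2) ^ 5 * (1 - z) ^ 4) + 551198689 / 312500 * ((z - 1 / 2) ^ 6 * (1 - z)
        ^ 3) + 442043084 / 390625 * ((z - 1 / 2) ^ 7 * (1 - z) ^ 2) + 152422772 / 390625 * ((z - 1
        / 2) ^ 8 * (1 - z)) + 4368704 / 78125 * ((z - 1 / 2) ^ 9) := by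
    unfold g2
    ring
  rw [e]
  positivity

theorem g2_i4 (z : ℝ) (h1 : 1 ≤ z) (h2 : z ≤ 2) : 0 ≤ g2 z := by
  have hs : 0 ≤ z - 1 := by linarith
  have ht : 0 ≤ 2 - z := by linarith
  have e : g2 z =
      68261 / 625000 * ((2 - z) ^ 9) + 35616187 / 25000000 * ((z - 1) * (2 - z) ^ 8) + 19114747 /
        2500000 * ((z - 1) ^ 2 * (2 - z) ^ 7) + 2169829219 / 100000000 * ((z - 1) ^ 3 * (2 - z) ^
        6) + 3508990191 / 100000000 * ((z - 1) ^ 4 * (2 - z) ^ 5) + 3252436229 / 100000000 * ((z -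
        1) ^ 5 * (2 - z) ^ 4) + 825427993 / 50000000 * ((z - 1) ^ 6 * (2 - z) ^ 3) + 82518569 /
        20000000 * ((z - 1) ^ 7 * (2 - z) ^ 2) + 2524943 / 6250000 * ((z - 1) ^ 8 * (2 - z)) +
        660827 / 50000000 * ((z - 1) ^ 9) := by
    unfold g2
    ring
  rw [e]
  positivity

theorem g2_i5 (z : ℝ) (h1 : 2 ≤ z) (h2 : z ≤ 33 / 16) : 0 ≤ g2 z := by
  have hs : 0 ≤ z - 2 := by linarith
  have ht : 0 ≤ 33 / 16 - z := by linarith
  have e : g2 z =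
      354778794164224 / 390625 * ((33 / 16 - z) ^ 9) + 2714787993616384 / 390625 * ((z - 2) * (33 /
        16 - z) ^ 8) + 9089900969197568 / 390625 * ((z - 2) ^ 2 * (33 / 16 - z) ^ 7) +
        17430892055166976 / 390625 * ((z - 2) ^ 3 * (33 / 16 - z) ^ 6) + 21023087203049472 / 390625
        * ((z - 2) ^ 4 * (33 / 16 - z) ^ 5) + 16465498662606592 / 390625 * ((z - 2) ^ 5 * (33 / 16
        - z) ^ 4) + 8329137622568704 / 390625 * ((z - 2) ^ 6 * (33 / 16 - z) ^ 3) +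
        2607805250192836 / 390625 * ((z - 2) ^ 7 * (33 / 16 - z) ^ 2) + 7297545875597271 / 6250000
        * ((z - 2) ^ 8 * (33 / 16 - z)) + 4354207313061103 / 50000000 * ((z - 2) ^ 9) := by
    unfold g2
    ring
  rw [e]
  positivity

theorem g2_i6 (z : ℝ) (h1 : 33 / 16 ≤ z) (h2 : z ≤ 67 / 32) : 0 ≤ g2 z := by
  have hs : 0 ≤ z - 33 / 16 := by linarith
  have ht : 0 ≤ 67 / 32 - z := by linarith
  have e : g2 z =
      17416829252244412 / 390625 * ((67 / 32 - z) ^ 9) + 118366460895743226 / 390625 * ((z - 33 /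
        16) * (67 / 32 - z) ^ 8) + 343433433341804348 / 390625 * ((z - 33 / 16) ^ 2 * (67 / 32 - z)
        ^ 7) + 553570298824016162 / 390625 * ((z - 33 / 16) ^ 3 * (67 / 32 - z) ^ 6) +
        1086600142478732737 / 781250 * ((z - 33 / 16) ^ 4 * (67 / 32 - z) ^ 5) +
        1367932904882600379 / 1562500 * ((z - 33 / 16) ^ 5 * (67 / 32 - z) ^ 4) +
        121340918601061207 / 312500 * ((z - 33 / 16) ^ 6 * (67 / 32 - z) ^ 3) + 459378926542069157
        / 3125000 * ((z - 33 / 16) ^ 7 * (67 / 32 - z) ^ 2) + 1204276417107880583 / 25000000 * ((z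
        - 33 / 16) ^ 8 * (67 / 32 - z)) + 16900860640744573 / 2000000 * ((z - 33 / 16) ^ 9) := by
    unfold g2
    ring
  rw [e]
  positivity

theorem g2_i7 (z : ℝ) (h1 : 67 / 32 ≤ z) (h2 : z ≤ 17 / 8) : 0 ≤ g2 z := by
  have hs : 0 ≤ z - 67 / 32 := by linarith
  have ht : 0 ≤ 17 / 8 - z := by linarith
  have e : g2 z =
      16900860640744573 / 2000000 * ((17 / 8 - z) ^ 9) + 1299208613529824171 / 12500000 * ((z - 67
        / 32) * (17 / 8 - z) ^ 8) + 463379934123459229 / 781250 * ((z - 67 / 32) ^ 2 * (17 / 8 - z)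
        ^ 7) + 762991202356228702 / 390625 * ((z - 67 / 32) ^ 3 * (17 / 8 - z) ^ 6) +
        1570127133434469676 / 390625 * ((z - 67 / 32) ^ 4 * (17 / 8 - z) ^ 5) + 2088816180058405584
        / 390625 * ((z - 67 / 32) ^ 5 * (17 / 8 - z) ^ 4) + 360200781845766784 / 78125 * ((z - 67 /
        32) ^ 6 * (17 / 8 - z) ^ 3) + 974033894374413824 / 390625 * ((z - 67 / 32) ^ 7 * (17 / 8 -
        z) ^ 2) + 12035846724766208 / 15625 * ((z - 67 / 32) ^ 8 * (17 / 8 - z)) + 64922529961984 /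
        625 * ((z - 67 / 32) ^ 9) := by
    unfold g2
    ring
  rw [e]
  positivity

theorem g2_i8 (z : ℝ) (h1 : 17 / 8 ≤ z) (h2 : z ≤ 9 / 4) : 0 ≤ g2 z := by
  have hs : 0 ≤ z - 17 / 8 := by linarith
  have ht : 0 ≤ 9 / 4 - z := by linarith
  have e : g2 z =
      31700454083 / 80000 * ((9 / 4 - z) ^ 9) + 6077748854533 / 1000000 * ((z - 17 / 8) * (9 / 4 -
        z) ^ 8) + 120852005448663 / 3125000 * ((z - 17 / 8) ^ 2 * (9 / 4 - z) ^ 7) + 41929818118017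
        / 312500 * ((z - 17 / 8) ^ 3 * (9 / 4 - z) ^ 6) + 442614949809589 / 1562500 * ((z - 17 / 8)
        ^ 4 * (9 / 4 - z) ^ 5) + 298245158643283 / 781250 * ((z - 17 / 8) ^ 5 * (9 / 4 - z) ^ 4) +
        129419427161798 / 390625 * ((z - 17 / 8) ^ 6 * (9 / 4 - z) ^ 3) + 70209585934148 / 390625 *
        ((z - 17 / 8) ^ 7 * (9 / 4 - z) ^ 2) + 21710531083062 / 390625 * ((z - 17 / 8) ^ 8 * (9 / 4
        - z)) + 585285042692 / 78125 * ((z - 17 / 8) ^ 9) := by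
    unfold g2
    ring
  rw [e]
  positivity

theorem g2_i9 (z : ℝ) (h1 : 9 / 4 ≤ z) (h2 : z ≤ 5 / 2) : 0 ≤ g2 z := by
  have hs : 0 ≤ z - 9 / 4 := by linarith
  have ht : 0 ≤ 5 / 2 - z := by linarith
  have e : g2 z =
      146321260673 / 10000000 * ((5 / 2 - z) ^ 9) + 2224526162331 / 12500000 * ((z - 9 / 4) * (5 /
        2 - z) ^ 8) + 2920228451729 / 3125000 * ((z - 9 / 4) ^ 2 * (5 / 2 - z) ^ 7) + 435370718311
        / 156250 * ((z - 9 / 4) ^ 3 * (5 / 2 - z) ^ 6) + 8144222323879 / 1562500 * ((z - 9 / 4) ^ 4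
        * (5 / 2 - z) ^ 5) + 2483628200879 / 390625 * ((z - 9 / 4) ^ 5 * (5 / 2 - z) ^ 4) +
        1979304804642 / 390625 * ((z - 9 / 4) ^ 6 * (5 / 2 - z) ^ 3) + 995207726376 / 390625 * ((z
        - 9 / 4) ^ 7 * (5 / 2 - z) ^ 2) + 286787714378 / 390625 * ((z - 9 / 4) ^ 8 * (5 / 2 - z)) +
        36113176376 / 390625 * ((z - 9 / 4) ^ 9) := by
    unfold g2
    ring
  rw [e]
  positivity

theorem g2_i10 (z : ℝ) (h1 : 5 / 2 ≤ z) (h2 : z ≤ 3) : 0 ≤ g2 z := by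
  have hs : 0 ≤ z - 5 / 2 := by linarith
  have ht : 0 ≤ 3 - z := by linarith
  have e : g2 z =
      4514147047 / 25000000 * ((3 - z) ^ 9) + 100370083349 / 50000000 * ((z - 5 / 2) * (3 - z) ^ 8)
        + 59865305037 / 6250000 * ((z - 5 / 2) ^ 2 * (3 - z) ^ 7) + 40052238693 / 1562500 * ((z - 5
        / 2) ^ 3 * (3 - z) ^ 6) + 263132196883 / 6250000 * ((z - 5 / 2) ^ 4 * (3 - z) ^ 5) +
        135836867839 / 3125000 * ((z - 5 / 2) ^ 5 * (3 - z) ^ 4) + 43042782833 / 1562500 * ((z - 5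
        / 2) ^ 6 * (3 - z) ^ 3) + 764970061 / 78125 * ((z - 5 / 2) ^ 7 * (3 - z) ^ 2) + 116622912 /
        78125 * ((z - 5 / 2) ^ 8 * (3 - z)) + 39232 / 390625 * ((z - 5 / 2) ^ 9) := by
    unfold g2
    ring
  rw [e]
  positivity

theorem g2_nonneg (z : ℝ) (hlo : -1 ≤ z) (hhi : z ≤ 3) : 0 ≤ g2 z := by
  rcases le_total z (-1 / 2) with h | k1
  · exact g2_i0 z hlo h
  rcases le_total z (0) with h | k2
  · exact g2_i1 z k1 h
  rcases le_total z (1 / 2) with h | k3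
  · exact g2_i2 z k2 h
  rcases le_total z (1) with h | k4
  · exact g2_i3 z k3 h
  rcases le_total z (2) with h | k5
  · exact g2_i4 z k4 h
  rcases le_total z (33 / 16) with h | k6
  · exact g2_i5 z k5 h
  rcases le_total z (67 / 32) with h | k7
  · exact g2_i6 z k6 h
  rcases le_total z (17 / 8) with h | k8
  · exact g2_i7 z k7 h
  rcases le_total z (9 / 4) with h | k9
  · exact g2_i8 z k8 h
  rcases le_total z (5 / 2) with h | k10
  · exact g2_i9 z k9 h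
  exact g2_i10 z k10 hhi

theorem L2_le (Z : ℝ) (h0 : 0 < Z) (h4 : Z ≤ 4) : L2 (Z - 1) * Z ^ 2 ≤ 1 := by
  have h := L2_fac (Z - 1)
  have hg := g2_nonneg (Z - 1) (by linarith) (by linarith)
  have hz : 0 ≤ (Z - 1) ^ 4 := by positivity
  have e : 1 + (Z - 1) = Z := by ring
  rw [e] at h
  have := mul_nonneg hz hg
  linarith

end Vale.Agent.P154.T4
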