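import Mathlib

/-! # P154 q = 4: the minorant `L3` of `1 / Z ^ 3` on `0 < Z ≤ 4` (certificate of helper46), generated -/

namespace Vale.Agent.P154.T4

noncomputable def L3 (z : ℝ) : ℝ :=
  1 - 3 * z + 118938427 / 20000000 * z ^ 2 - 233515823 / 25000000 * z ^ 3 + 561496127 / 50000000 *
    z ^ 4 - 955812169 / 100000000 * z ^ 5 + 68291827 / 12500000 * z ^ 6 - 50728187 / 25000000 * z ^
    7 + 47122611 / 100000000 * z ^ 8 - 6308847 / 100000000 * z ^ 9 + 190239 / 50000000 * z ^ 10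

noncomputable def g3 (z : ℝ) : ℝ :=
  1061573 / 20000000 - 50013113 / 100000000 * z + 195121217 / 100000000 * z ^ 2 - 51416713 /
    25000000 * z ^ 3 - 113811579 / 100000000 * z ^ 4 + 308353153 / 100000000 * z ^ 5 - 60788023 /
    50000000 * z ^ 6 - 36327679 / 50000000 * z ^ 7 + 40045489 / 50000000 * z ^ 8 - 916797 / 3125000
    * z ^ 9 + 5167413 / 100000000 * z ^ 10 - 190239 / 50000000 * z ^ 11

theorem L3_fac (z : ℝ) : 1 - L3 z * (1 + z) ^ 3 = z ^ 2 * g3 z := by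
  unfold L3 g3
  ring

theorem g3_i0 (z : ℝ) (h1 : -1 ≤ z) (h2 : z ≤ 0) : 0 ≤ g3 z := by
  have hs : 0 ≤ z + 1 := by linarith
  have ht : 0 ≤ 0 - z := by linarith
  have e : g3 z =
      1 * ((0 - z) ^ 11) + 13 * ((z + 1) * (0 - z) ^ 10) + 78 * ((z + 1) ^ 2 * (0 - z) ^ 9) +
        475787617 / 2000000 * ((z + 1) ^ 3 * (0 - z) ^ 8) + 4209237473 / 10000000 * ((z + 1) ^ 4 *
        (0 - z) ^ 7) + 46796417037 / 100000000 * ((z + 1) ^ 5 * (0 - z) ^ 6) + 16999403619 /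
        50000000 * ((z + 1) ^ 6 * (0 - z) ^ 5) + 16309056059 / 100000000 * ((z + 1) ^ 7 * (0 - z) ^
        4) + 1017629123 / 20000000 * ((z + 1) ^ 8 * (0 - z) ^ 3) + 493592461 / 50000000 * ((z + 1)
        ^ 9 * (0 - z) ^ 2) + 27099907 / 25000000 * ((z + 1) ^ 10 * (0 - z)) + 1061573 / 20000000 *
        ((z + 1) ^ 11) := by
    unfold g3
    ring
  rw [e]
  positivity

theorem g3_i1 (z : ℝ) (h1 : 0 ≤ z) (h2 : z ≤ 1 / 2) : 0 ≤ g3 z := by
  have hs : 0 ≤ z := by linarith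
  have ht : 0 ≤ 1 / 2 - z := by linarith
  have e : g3 z =
      8492584 / 78125 * ((1 / 2 - z) ^ 11) + 267039668 / 390625 * (z * (1 / 2 - z) ^ 10) +
        725178514 / 390625 * (z ^ 2 * (1 / 2 - z) ^ 9) + 1310536514 / 390625 * (z ^ 3 * (1 / 2 - z)
        ^ 8) + 4705912757 / 781250 * (z ^ 4 * (1 / 2 - z) ^ 7) + 17229177927 / 1562500 * (z ^ 5 *
        (1 / 2 - z) ^ 6) + 24440661009 / 1562500 * (z ^ 6 * (1 / 2 - z) ^ 5) + 46877691413 /
        3125000 * (z ^ 7 * (1 / 2 - z) ^ 4) + 58328646121 / 6250000 * (z ^ 8 * (1 / 2 - z) ^ 3) +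
        22596689379 / 6250000 * (z ^ 9 * (1 / 2 - z) ^ 2) + 39691152301 / 50000000 * (z ^ 10 * (1 /
        2 - z)) + 1888890359 / 25000000 * (z ^ 11) := by
    unfold g3
    ring
  rw [e]
  positivity

theorem g3_i2 (z : ℝ) (h1 : 1 / 2 ≤ z) (h2 : z ≤ 1) : 0 ≤ g3 z := by
  have hs : 0 ≤ z - 1 / 2 := by linarith
  have ht : 0 ≤ 1 - z := by linarith
  have e : g3 z =
      1888890359 / 25000000 * ((1 - z) ^ 11) + 8684004699 / 10000000 * ((z - 1 / 2) * (1 - z) ^ 10)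
        + 54515556743 / 12500000 * ((z - 1 / 2) ^ 2 * (1 - z) ^ 9) + 157389308797 / 12500000 * ((z
        - 1 / 2) ^ 3 * (1 - z) ^ 8) + 72408656613 / 3125000 * ((z - 1 / 2) ^ 4 * (1 - z) ^ 7) +
        44508603277 / 1562500 * ((z - 1 / 2) ^ 5 * (1 - z) ^ 6) + 37226370209 / 1562500 * ((z - 1 /
        2) ^ 6 * (1 - z) ^ 5) + 5286413132 / 390625 * ((z - 1 / 2) ^ 7 * (1 - z) ^ 4) + 1999249918
        / 390625 * ((z - 1 / 2) ^ 8 * (1 - z) ^ 3) + 483290648 / 390625 * ((z - 1 / 2) ^ 9 * (1 -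
        z) ^ 2) + 13847776 / 78125 * ((z - 1 / 2) ^ 10 * (1 - z)) + 4797568 / 390625 * ((z - 1 / 2)
        ^ 11) := by
    unfold g3
    ring
  rw [e]
  positivity

theorem g3_i3 (z : ℝ) (h1 : 1 ≤ z) (h2 : z ≤ 2) : 0 ≤ g3 z := by
  have hs : 0 ≤ z - 1 := by linarith
  have ht : 0 ≤ 2 - z := by linarith
  have e : g3 z =
      37481 / 6250000 * ((2 - z) ^ 11) + 310031 / 12500000 * ((z - 1) * (2 - z) ^ 10) + 4800811 /
        25000000 * ((z - 1) ^ 2 * (2 - z) ^ 9) + 18638291 / 10000000 * ((z - 1) ^ 3 * (2 - z) ^ 8)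
        + 103786811 / 12500000 * ((z - 1) ^ 4 * (2 - z) ^ 7) + 1930730767 / 100000000 * ((z - 1) ^
        5 * (2 - z) ^ 6) + 321425863 / 12500000 * ((z - 1) ^ 6 * (2 - z) ^ 5) + 2012686881 /
        100000000 * ((z - 1) ^ 7 * (2 - z) ^ 4) + 179969057 / 20000000 * ((z - 1) ^ 8 * (2 - z) ^
        3) + 13005257 / 6250000 * ((z - 1) ^ 9 * (2 - z) ^ 2) + 10045311 / 50000000 * ((z - 1) ^ 10
        * (2 - z)) + 694843 / 100000000 * ((z - 1) ^ 11) := by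
    unfold g3
    ring
  rw [e]
  positivity

theorem g3_i4 (z : ℝ) (h1 : 2 ≤ z) (h2 : z ≤ 17 / 8) : 0 ≤ g3 z := by
  have hs : 0 ≤ z - 2 := by linarith
  have ht : 0 ≤ 17 / 8 - z := by linarith
  have e : g3 z =
      23315062194176 / 390625 * ((17 / 8 - z) ^ 11) + 40851543687168 / 78125 * ((z - 2) * (17 / 8 -
        z) ^ 10) + 784048427892736 / 390625 * ((z - 2) ^ 2 * (17 / 8 - z) ^ 9) + 1723848514076672 /
        390625 * ((z - 2) ^ 3 * (17 / 8 - z) ^ 8) + 2383011094388736 / 390625 * ((z - 2) ^ 4 * (17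
        / 8 - z) ^ 7) + 430145104827392 / 78125 * ((z - 2) ^ 5 * (17 / 8 - z) ^ 6) +
        1307902680649472 / 390625 * ((z - 2) ^ 6 * (17 / 8 - z) ^ 5) + 120914680469152 / 78125 *
        ((z - 2) ^ 7 * (17 / 8 - z) ^ 4) + 11511149497036 / 15625 * ((z - 2) ^ 8 * (17 / 8 - z) ^
        3) + 233582117507 / 625 * ((z - 2) ^ 9 * (17 / 8 - z) ^ 2) + 104777495641 / 800 * ((z - 2)
        ^ 10 * (17 / 8 - z)) + 2563410053 / 128 * ((z - 2) ^ 11) := by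
    unfold g3
    ring
  rw [e]
  positivity

theorem g3_i5 (z : ℝ) (h1 : 17 / 8 ≤ z) (h2 : z ≤ 9 / 4) : 0 ≤ g3 z := by
  have hs : 0 ≤ z - 17 / 8 := by linarith
  have ht : 0 ≤ 9 / 4 - z := by linarith
  have e : g3 z =
      2563410053 / 128 * ((9 / 4 - z) ^ 11) + 495382773293 / 1600 * ((z - 17 / 8) * (9 / 4 - z) ^
        10) + 43203100511599 / 20000 * ((z - 17 / 8) ^ 2 * (9 / 4 - z) ^ 9) + 2212670267182199 /
        250000 * ((z - 17 / 8) ^ 3 * (9 / 4 - z) ^ 8) + 7370400192407213 / 312500 * ((z - 17 / 8) ^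
        4 * (9 / 4 - z) ^ 7) + 33565337856001361 / 781250 * ((z - 17 / 8) ^ 5 * (9 / 4 - z) ^ 6) +
        21374967760138311 / 390625 * ((z - 17 / 8) ^ 6 * (9 / 4 - z) ^ 5) + 19082648165926094 /
        390625 * ((z - 17 / 8) ^ 7 * (9 / 4 - z) ^ 4) + 11730234327493714 / 390625 * ((z - 17 / 8)
        ^ 8 * (9 / 4 - z) ^ 3) + 4738140744681572 / 390625 * ((z - 17 / 8) ^ 9 * (9 / 4 - z) ^ 2) +
        1133806207837464 / 390625 * ((z - 17 / 8) ^ 10 * (9 / 4 - z)) + 121943808533552 / 390625 *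
        ((z - 17 / 8) ^ 11) := by
    unfold g3
    ring
  rw [e]
  positivity

theorem g3_i6 (z : ℝ) (h1 : 9 / 4 ≤ z) (h2 : z ≤ 5 / 2) : 0 ≤ g3 z := by
  have hs : 0 ≤ z - 9 / 4 := by linarith
  have ht : 0 ≤ 5 / 2 - z := by linarith
  have e : g3 z =
      7621488033347 / 50000000 * ((5 / 2 - z) ^ 11) + 857682258756 / 390625 * ((z - 9 / 4) * (5 / 2
        - z) ^ 10) + 176349620821667 / 12500000 * ((z - 9 / 4) ^ 2 * (5 / 2 - z) ^ 9) +
        167007673727689 / 3125000 * ((z - 9 / 4) ^ 3 * (5 / 2 - z) ^ 8) + 207503047262539 / 1562500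
        * ((z - 9 / 4) ^ 4 * (5 / 2 - z) ^ 7) + 88909992747978 / 390625 * ((z - 9 / 4) ^ 5 * (5 / 2
        - z) ^ 6) + 107371929220103 / 390625 * ((z - 9 / 4) ^ 6 * (5 / 2 - z) ^ 5) + 91456647315548
        / 390625 * ((z - 9 / 4) ^ 7 * (5 / 2 - z) ^ 4) + 53888733572494 / 390625 * ((z - 9 / 4) ^ 8
        * (5 / 2 - z) ^ 3) + 20932336618528 / 390625 * ((z - 9 / 4) ^ 9 * (5 / 2 - z) ^ 2) +
        4826233224568 / 390625 * ((z - 9 / 4) ^ 10 * (5 / 2 - z)) + 100101640096 / 78125 * ((z - 9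
        / 4) ^ 11) := by
    unfold g3
    ring
  rw [e]
  positivity

theorem g3_i7 (z : ℝ) (h1 : 5 / 2 ≤ z) (h2 : z ≤ 3) : 0 ≤ g3 z := by
  have hs : 0 ≤ z - 5 / 2 := by linarith
  have ht : 0 ≤ 3 - z := by linarith
  have e : g3 z =
      3128176253 / 5000000 * ((3 - z) ^ 11) + 429019010419 / 50000000 * ((z - 5 / 2) * (3 - z) ^
        10) + 654795503713 / 12500000 * ((z - 5 / 2) ^ 2 * (3 - z) ^ 9) + 2345275116553 / 12500000
        * ((z - 5 / 2) ^ 3 * (3 - z) ^ 8) + 1365510438953 / 3125000 * ((z - 5 / 2) ^ 4 * (3 - z) ^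
        7) + 1081253944147 / 1562500 * ((z - 5 / 2) ^ 5 * (3 - z) ^ 6) + 1180125068709 / 1562500 *
        ((z - 5 / 2) ^ 6 * (3 - z) ^ 5) + 219301207091 / 390625 * ((z - 5 / 2) ^ 7 * (3 - z) ^ 4) +
        106324776766 / 390625 * ((z - 5 / 2) ^ 8 * (3 - z) ^ 3) + 30385488944 / 390625 * ((z - 5 /
        2) ^ 9 * (3 - z) ^ 2) + 3890758272 / 390625 * ((z - 5 / 2) ^ 10 * (3 - z)) + 613376 /
        390625 * ((z - 5 / 2) ^ 11) := by
    unfold g3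
    ring
  rw [e]
  positivity

theorem g3_nonneg (z : ℝ) (hlo : -1 ≤ z) (hhi : z ≤ 3) : 0 ≤ g3 z := by
  rcases le_total z (0) with h | k1
  · exact g3_i0 z hlo h
  rcases le_total z (1 / 2) with h | k2
  · exact g3_i1 z k1 h
  rcases le_total z (1) with h | k3
  · exact g3_i2 z k2 h
  rcases le_total z (2) with h | k4
  · exact g3_i3 z k3 h
  rcases le_total z (17 / 8) with h | k5
  · exact g3_i4 z k4 h
  rcases le_total z (9 / 4) with h | k6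
  · exact g3_i5 z k5 h
  rcases le_total z (5 / 2) with h | k7
  · exact g3_i6 z k6 h
  exact g3_i7 z k7 hhi

theorem L3_le (Z : ℝ) (h0 : 0 < Z) (h4 : Z ≤ 4) : L3 (Z - 1) * Z ^ 3 ≤ 1 := by
  have h := L3_fac (Z - 1)
  have hg := g3_nonneg (Z - 1) (by linarith) (by linarith)
  have hz : 0 ≤ (Z - 1) ^ 2 := by positivity
  have e : 1 + (Z - 1) = Z := by ring
  rw [e] at h
  have := mul_nonneg hz hg
  linarith

end Vale.Agent.P154.T4
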