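import Mathlib

/-! # P154 q = 4: the minorant `L4` of `1 / Z ^ 4` on `0 < Z ≤ 4` (certificate of helper46), generated -/

namespace Vale.Agent.P154.T4

noncomputable def L4 (z : ℝ) : ℝ :=
  1 - 4 * z + 938714593 / 100000000 * z ^ 2 - 1386378149 / 100000000 * z ^ 3 + 273306897 / 25000000
    * z ^ 4 - 396636073 / 100000000 * z ^ 5 + 17022293 / 50000000 * z ^ 6 + 9020909 / 100000000 * z
    ^ 7 + 985319 / 100000000 * z ^ 8 - 680409 / 100000000 * z ^ 9

noncomputable def g4 (z : ℝ) : ℝ :=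
  61285407 / 100000000 - 368480223 / 100000000 * z + 6399949 / 2000000 * z ^ 2 + 987136243 /
    100000000 * z ^ 3 - 400067819 / 100000000 * z ^ 4 - 375957509 / 50000000 * z ^ 5 + 251980233 /
    100000000 * z ^ 6 + 12691963 / 6250000 * z ^ 7 - 146637 / 200000 * z ^ 8 - 8879731 / 100000000
    * z ^ 9 + 1736317 / 100000000 * z ^ 10 + 680409 / 100000000 * z ^ 11

theorem L4_fac (z : ℝ) : 1 - L4 z * (1 + z) ^ 4 = z ^ 2 * g4 z := by
  unfold L4 g4
  ring

theorem g4_i0 (z : ℝ) (h1 : -1 ≤ z) (h2 : z ≤ 0) : 0 ≤ g4 z := by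
  have hs : 0 ≤ z + 1 := by linarith
  have ht : 0 ≤ 0 - z := by linarith
  have e : g4 z =
      1 * ((0 - z) ^ 11) + 13 * ((z + 1) * (0 - z) ^ 10) + 78 * ((z + 1) ^ 2 * (0 - z) ^ 9) + 286 *
        ((z + 1) ^ 3 * (0 - z) ^ 8) + 4197397137 / 6250000 * ((z + 1) ^ 4 * (0 - z) ^ 7) +
        12821621183 / 12500000 * ((z + 1) ^ 5 * (0 - z) ^ 6) + 20577223229 / 20000000 * ((z + 1) ^
        6 * (0 - z) ^ 5) + 67664561507 / 100000000 * ((z + 1) ^ 7 * (0 - z) ^ 4) + 28586542997 /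
        100000000 * ((z + 1) ^ 8 * (0 - z) ^ 3) + 1475099413 / 20000000 * ((z + 1) ^ 9 * (0 - z) ^
        2) + 10426197 / 1000000 * ((z + 1) ^ 10 * (0 - z)) + 61285407 / 100000000 * ((z + 1) ^ 11) := by
    unfold g4
    ring
  rw [e]
  positivity

theorem g4_i1 (z : ℝ) (h1 : 0 ≤ z) (h2 : z ≤ 1 / 4) : 0 ≤ g4 z := by
  have hs : 0 ≤ z := by linarith
  have ht : 0 ≤ 1 / 4 - z := by linarith
  have e : g4 z =
      1004100108288 / 390625 * ((1 / 4 - z) ^ 11) + 1907161239552 / 78125 * (z * (1 / 4 - z) ^ 10)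
        + 8092046682112 / 78125 * (z ^ 2 * (1 / 4 - z) ^ 9) + 100960046541568 / 390625 * (z ^ 3 *
        (1 / 4 - z) ^ 8) + 164030073208128 / 390625 * (z ^ 4 * (1 / 4 - z) ^ 7) + 7254069345568 /
        15625 * (z ^ 5 * (1 / 4 - z) ^ 6) + 138381980789156 / 390625 * (z ^ 6 * (1 / 4 - z) ^ 5) +
        72306550739908 / 390625 * (z ^ 7 * (1 / 4 - z) ^ 4) + 5022342588483 / 78125 * (z ^ 8 * (1 /
        4 - z) ^ 3) + 3502400755173 / 250000 * (z ^ 9 * (1 / 4 - z) ^ 2) + 346769600457 / 200000 *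
        (z ^ 10 * (1 / 4 - z)) + 15870582253 / 160000 * (z ^ 11) := by
    unfold g4
    ring
  rw [e]
  positivity

theorem g4_i2 (z : ℝ) (h1 : 1 / 4 ≤ z) (h2 : z ≤ 1 / 2) : 0 ≤ g4 z := by
  have hs : 0 ≤ z - 1 / 4 := by linarith
  have ht : 0 ≤ 1 / 2 - z := by linarith
  have e : g4 z =
      15870582253 / 160000 * ((1 / 2 - z) ^ 11) + 179342823001 / 400000 * ((z - 1 / 4) * (1 / 2 -
        z) ^ 10) + 1154693572867 / 1000000 * ((z - 1 / 4) ^ 2 * (1 / 2 - z) ^ 9) + 16816331039559 /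
        2500000 * ((z - 1 / 4) ^ 3 * (1 / 2 - z) ^ 8) + 103584296587169 / 3125000 * ((z - 1 / 4) ^
        4 * (1 / 2 - z) ^ 7) + 144287992583529 / 1562500 * ((z - 1 / 4) ^ 5 * (1 / 2 - z) ^ 6) +
        24427862442127 / 156250 * ((z - 1 / 4) ^ 6 * (1 / 2 - z) ^ 5) + 66360667938227 / 390625 *
        ((z - 1 / 4) ^ 7 * (1 / 2 - z) ^ 4) + 46882826304209 / 390625 * ((z - 1 / 4) ^ 8 * (1 / 2 -
        z) ^ 3) + 20926051849682 / 390625 * ((z - 1 / 4) ^ 9 * (1 / 2 - z) ^ 2) + 5379872468412 /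
        390625 * ((z - 1 / 4) ^ 10 * (1 / 2 - z)) + 608781535288 / 390625 * ((z - 1 / 4) ^ 11) := by
    unfold g4
    ring
  rw [e]
  positivity

theorem g4_i3 (z : ℝ) (h1 : 1 / 2 ≤ z) (h2 : z ≤ 1) : 0 ≤ g4 z := by
  have hs : 0 ≤ z - 1 / 2 := by linarith
  have ht : 0 ≤ 1 - z := by linarith
  have e : g4 z =
      76097691911 / 100000000 * ((1 - z) ^ 11) + 29156392899 / 2500000 * ((z - 1 / 2) * (1 - z) ^
        10) + 486396244231 / 6250000 * ((z - 1 / 2) ^ 2 * (1 - z) ^ 9) + 3740250462911 / 12500000 *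
        ((z - 1 / 2) ^ 3 * (1 - z) ^ 8) + 1155445462363 / 1562500 * ((z - 1 / 2) ^ 4 * (1 - z) ^ 7)
        + 773848787633 / 625000 * ((z - 1 / 2) ^ 5 * (1 - z) ^ 6) + 561661189527 / 390625 * ((z - 1
        / 2) ^ 6 * (1 - z) ^ 5) + 90717261262 / 78125 * ((z - 1 / 2) ^ 7 * (1 - z) ^ 4) +
        250185943008 / 390625 * ((z - 1 / 2) ^ 8 * (1 - z) ^ 3) + 89923943264 / 390625 * ((z - 1 /
        2) ^ 9 * (1 - z) ^ 2) + 18984541952 / 390625 * ((z - 1 / 2) ^ 10 * (1 - z)) + 1785809408 /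
        390625 * ((z - 1 / 2) ^ 11) := by
    unfold g4
    ring
  rw [e]
  positivity

theorem g4_i4 (z : ℝ) (h1 : 1 ≤ z) (h2 : z ≤ 3 / 2) : 0 ≤ g4 z := by
  have hs : 0 ≤ z - 1 := by linarith
  have ht : 0 ≤ 3 / 2 - z := by linarith
  have e : g4 z =
      1785809408 / 390625 * ((3 / 2 - z) ^ 11) + 20303265024 / 390625 * ((z - 1) * (3 / 2 - z) ^
        10) + 103111173984 / 390625 * ((z - 1) ^ 2 * (3 / 2 - z) ^ 9) + 308495902944 / 390625 * ((z
        - 1) ^ 3 * (3 / 2 - z) ^ 8) + 603572448518 / 390625 * ((z - 1) ^ 4 * (3 / 2 - z) ^ 7) +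
        809956684477 / 390625 * ((z - 1) ^ 5 * (3 / 2 - z) ^ 6) + 6078435003541 / 3125000 * ((z -
        1) ^ 6 * (3 / 2 - z) ^ 5) + 995233165647 / 781250 * ((z - 1) ^ 7 * (3 / 2 - z) ^ 4) +
        1425196355027 / 2500000 * ((z - 1) ^ 8 * (3 / 2 - z) ^ 3) + 20725276883 / 125000 * ((z - 1)
        ^ 9 * (3 / 2 - z) ^ 2) + 2817302247 / 100000 * ((z - 1) ^ 10 * (3 / 2 - z)) + 338699001 /
        160000 * ((z - 1) ^ 11) := by
    unfold g4
    ring
  rw [e]
  positivity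

theorem g4_i5 (z : ℝ) (h1 : 3 / 2 ≤ z) (h2 : z ≤ 7 / 4) : 0 ≤ g4 z := by
  have hs : 0 ≤ z - 3 / 2 := by linarith
  have ht : 0 ≤ 7 / 4 - z := by linarith
  have e : g4 z =
      2709592008 / 625 * ((7 / 4 - z) ^ 11) + 133387668756 / 3125 * ((z - 3 / 2) * (7 / 4 - z) ^
        10) + 2947692602462 / 15625 * ((z - 3 / 2) ^ 2 * (7 / 4 - z) ^ 9) + 38543149469219 / 78125
        * ((z - 3 / 2) ^ 3 * (7 / 4 - z) ^ 8) + 330762008813373 / 390625 * ((z - 3 / 2) ^ 4 * (7 /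
        4 - z) ^ 7) + 780783752217557 / 781250 * ((z - 3 / 2) ^ 5 * (7 / 4 - z) ^ 6) +
        258011217426091 / 312500 * ((z - 3 / 2) ^ 6 * (7 / 4 - z) ^ 5) + 1487353199927711 / 3125000
        * ((z - 3 / 2) ^ 7 * (7 / 4 - z) ^ 4) + 2336621694363213 / 12500000 * ((z - 3 / 2) ^ 8 * (7
        / 4 - z) ^ 3) + 1185706019779413 / 25000000 * ((z - 3 / 2) ^ 9 * (7 / 4 - z) ^ 2) +
        348159947361291 / 50000000 * ((z - 3 / 2) ^ 10 * (7 / 4 - z)) + 44641178474083 / 100000000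
        * ((z - 3 / 2) ^ 11) := by
    unfold g4
    ring
  rw [e]
  positivity

theorem g4_i6 (z : ℝ) (h1 : 7 / 4 ≤ z) (h2 : z ≤ 29 / 16) : 0 ≤ g4 z := by
  have hs : 0 ≤ z - 7 / 4 := by linarith
  have ht : 0 ≤ 29 / 16 - z := by linarith
  have e : g4 z =
      731401068119375872 / 390625 * ((29 / 16 - z) ^ 11) + 7204638397857722368 / 390625 * ((z - 7 /
        4) * (29 / 16 - z) ^ 10) + 32059852538729141248 / 390625 * ((z - 7 / 4) ^ 2 * (29 / 16 - z)
        ^ 9) + 85017224824434114816 / 390625 * ((z - 7 / 4) ^ 3 * (29 / 16 - z) ^ 8) +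
        149175210934286985088 / 390625 * ((z - 7 / 4) ^ 4 * (29 / 16 - z) ^ 7) +
        7268197488807989856 / 15625 * ((z - 7 / 4) ^ 5 * (29 / 16 - z) ^ 6) + 156634951014829666984
        / 390625 * ((z - 7 / 4) ^ 6 * (29 / 16 - z) ^ 5) + 95457050933519660162 / 390625 * ((z - 7
        / 4) ^ 7 * (29 / 16 - z) ^ 4) + 32205970974455502787 / 312500 * ((z - 7 / 4) ^ 8 * (29 / 16
        - z) ^ 3) + 7152444269833909667 / 250000 * ((z - 7 / 4) ^ 9 * (29 / 16 - z) ^ 2) +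
        939873590435012757 / 200000 * ((z - 7 / 4) ^ 10 * (29 / 16 - z)) + 55305966684654397 /
        160000 * ((z - 7 / 4) ^ 11) := by
    unfold g4
    ring
  rw [e]
  positivity

theorem g4_i7 (z : ℝ) (h1 : 29 / 16 ≤ z) (h2 : z ≤ 15 / 8) : 0 ≤ g4 z := by
  have hs : 0 ≤ z - 29 / 16 := by linarith
  have ht : 0 ≤ 15 / 8 - z := by linarith
  have e : g4 z =
      55305966684654397 / 160000 * ((15 / 8 - z) ^ 11) + 1162080986785966321 / 400000 * ((z - 29 /
        16) * (15 / 8 - z) ^ 10) + 10668122227234158843 / 1000000 * ((z - 29 / 16) ^ 2 * (15 / 8 -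
        z) ^ 9) + 55762185166677952639 / 2500000 * ((z - 29 / 16) ^ 3 * (15 / 8 - z) ^ 8) +
        90424695086107571601 / 3125000 * ((z - 29 / 16) ^ 4 * (15 / 8 - z) ^ 7) +
        37094427003015037441 / 1562500 * ((z - 29 / 16) ^ 5 * (15 / 8 - z) ^ 6) +
        1889571374666978887 / 156250 * ((z - 29 / 16) ^ 6 * (15 / 8 - z) ^ 5) + 1536962915262124907
        / 390625 * ((z - 29 / 16) ^ 7 * (15 / 8 - z) ^ 4) + 546371685508003937 / 390625 * ((z - 29
        / 16) ^ 8 * (15 / 8 - z) ^ 3) + 67316034617058202 / 78125 * ((z - 29 / 16) ^ 9 * (15 / 8 -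
        z) ^ 2) + 28616160271599468 / 78125 * ((z - 29 / 16) ^ 10 * (15 / 8 - z)) +
        23891401983672312 / 390625 * ((z - 29 / 16) ^ 11) := by
    unfold g4
    ring
  rw [e]
  positivity

theorem g4_i8 (z : ℝ) (h1 : 15 / 8 ≤ z) (h2 : z ≤ 2) : 0 ≤ g4 z := by
  have hs : 0 ≤ z - 15 / 8 := by linarith
  have ht : 0 ≤ 2 - z := by linarith
  have e : g4 z =
      2986425247959039 / 100000000 * ((2 - z) ^ 11) + 7847729105393619 / 12500000 * ((z - 15 / 8) *
        (2 - z) ^ 10) + 1792076794054343 / 312500 * ((z - 15 / 8) ^ 2 * (2 - z) ^ 9) +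
        10996304661342628 / 390625 * ((z - 15 / 8) ^ 3 * (2 - z) ^ 8) + 32885512484830336 / 390625
        * ((z - 15 / 8) ^ 4 * (2 - z) ^ 7) + 64358942724719744 / 390625 * ((z - 15 / 8) ^ 5 * (2 -
        z) ^ 6) + 85510492084852736 / 390625 * ((z - 15 / 8) ^ 6 * (2 - z) ^ 5) + 78021025883332608
        / 390625 * ((z - 15 / 8) ^ 7 * (2 - z) ^ 4) + 9658847839977472 / 78125 * ((z - 15 / 8) ^ 8
        * (2 - z) ^ 3) + 3885155091480576 / 78125 * ((z - 15 / 8) ^ 9 * (2 - z) ^ 2) +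
        917842224480256 / 78125 * ((z - 15 / 8) ^ 10 * (2 - z)) + 483926346825728 / 390625 * ((z -
        15 / 8) ^ 11) := by
    unfold g4
    ring
  rw [e]
  positivity

theorem g4_i9 (z : ℝ) (h1 : 2 ≤ z) (h2 : z ≤ 9 / 4) : 0 ≤ g4 z := by
  have hs : 0 ≤ z - 2 := by linarith
  have ht : 0 ≤ 9 / 4 - z := by linarith
  have e : g4 z =
      236292161536 / 390625 * ((9 / 4 - z) ^ 11) + 3315989843968 / 390625 * ((z - 2) * (9 / 4 - z)
        ^ 10) + 4091208609792 / 78125 * ((z - 2) ^ 2 * (9 / 4 - z) ^ 9) + 2934779331328 / 15625 *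
        ((z - 2) ^ 3 * (9 / 4 - z) ^ 8) + 170366532246336 / 390625 * ((z - 2) ^ 4 * (9 / 4 - z) ^
        7) + 269380147127008 / 390625 * ((z - 2) ^ 5 * (9 / 4 - z) ^ 6) + 296295044611492 / 390625
        * ((z - 2) ^ 6 * (9 / 4 - z) ^ 5) + 226820795910644 / 390625 * ((z - 2) ^ 7 * (9 / 4 - z) ^
        4) + 236842636392313 / 781250 * ((z - 2) ^ 8 * (9 / 4 - z) ^ 3) + 642130403478053 / 6250000
        * ((z - 2) ^ 9 * (9 / 4 - z) ^ 2) + 20320325677731 / 1000000 * ((z - 2) ^ 10 * (9 / 4 - z))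
        + 177482522317749 / 100000000 * ((z - 2) ^ 11) := by
    unfold g4
    ring
  rw [e]
  positivity

theorem g4_i10 (z : ℝ) (h1 : 9 / 4 ≤ z) (h2 : z ≤ 19 / 8) : 0 ≤ g4 z := by
  have hs : 0 ≤ z - 9 / 4 := by linarith
  have ht : 0 ≤ 19 / 8 - z := by linarith
  have e : g4 z =
      1419860178541992 / 390625 * ((19 / 8 - z) ^ 11) + 15299562674850468 / 390625 * ((z - 9 / 4) *
        (19 / 8 - z) ^ 10) + 74333915939483206 / 390625 * ((z - 9 / 4) ^ 2 * (19 / 8 - z) ^ 9) +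
        214795923821769127 / 390625 * ((z - 9 / 4) ^ 3 * (19 / 8 - z) ^ 8) + 16392237167095057 /
        15625 * ((z - 9 / 4) ^ 4 * (19 / 8 - z) ^ 7) + 1082973971020098781 / 781250 * ((z - 9 / 4)
        ^ 5 * (19 / 8 - z) ^ 6) + 404009326238448823 / 312500 * ((z - 9 / 4) ^ 6 * (19 / 8 - z) ^
        5) + 2655724415086289319 / 3125000 * ((z - 9 / 4) ^ 7 * (19 / 8 - z) ^ 4) +
        4815078656732594089 / 12500000 * ((z - 9 / 4) ^ 8 * (19 / 8 - z) ^ 3) + 2861037896130951501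
        / 25000000 * ((z - 9 / 4) ^ 9 * (19 / 8 - z) ^ 2) + 200126706197500571 / 10000000 * ((z - 9
        / 4) ^ 10 * (19 / 8 - z)) + 155719566770553179 / 100000000 * ((z - 9 / 4) ^ 11) := by
    unfold g4
    ring
  rw [e]
  positivity

theorem g4_i11 (z : ℝ) (h1 : 19 / 8 ≤ z) (h2 : z ≤ 39 / 16) : 0 ≤ g4 z := by
  have hs : 0 ≤ z - 19 / 8 := by linarith
  have ht : 0 ≤ 39 / 16 - z := by linarith
  have e : g4 z =
      1245756534164425432 / 390625 * ((39 / 16 - z) ^ 11) + 12549914565812996788 / 390625 * ((z -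
        19 / 8) * (39 / 16 - z) ^ 10) + 56974650553394916618 / 390625 * ((z - 19 / 8) ^ 2 * (39 /
        16 - z) ^ 9) + 153688973391219109291 / 390625 * ((z - 19 / 8) ^ 3 * (39 / 16 - z) ^ 8) +
        273335965776842156343 / 390625 * ((z - 19 / 8) ^ 4 * (39 / 16 - z) ^ 7) +
        134396120313684119917 / 156250 * ((z - 19 / 8) ^ 5 * (39 / 16 - z) ^ 6) +
        1162808346749405562181 / 1562500 * ((z - 19 / 8) ^ 6 * (39 / 16 - z) ^ 5) +
        1412881243489658086651 / 3125000 * ((z - 19 / 8) ^ 7 * (39 / 16 - z) ^ 4) +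
        471160010089457225819 / 2500000 * ((z - 19 / 8) ^ 8 * (39 / 16 - z) ^ 3) +
        51157958200366404713 / 1000000 * ((z - 19 / 8) ^ 9 * (39 / 16 - z) ^ 2) +
        3242893948480620981 / 400000 * ((z - 19 / 8) ^ 10 * (39 / 16 - z)) + 90594570373487007 /
        160000 * ((z - 19 / 8) ^ 11) := by
    unfold g4
    ring
  rw [e]
  positivity

theorem g4_i12 (z : ℝ) (h1 : 39 / 16 ≤ z) (h2 : z ≤ 79 / 32) : 0 ≤ g4 z := by
  have hs : 0 ≤ z - 39 / 16 := by linarith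
  have ht : 0 ≤ 79 / 32 - z := by linarith
  have e : g4 z =
      724756562987896056 / 625 * ((79 / 32 - z) ^ 11) + 33849264858656456772 / 3125 * ((z - 39 /
        16) * (79 / 32 - z) ^ 10) + 705742913258362072354 / 15625 * ((z - 39 / 16) ^ 2 * (79 / 32 -
        z) ^ 9) + 8637266267485202896343 / 78125 * ((z - 39 / 16) ^ 3 * (79 / 32 - z) ^ 8) +
        68583939415212975385771 / 390625 * ((z - 39 / 16) ^ 4 * (79 / 32 - z) ^ 7) +
        147321618564651007057009 / 781250 * ((z - 39 / 16) ^ 5 * (79 / 32 - z) ^ 6) +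
        216099577185347943173273 / 1562500 * ((z - 39 / 16) ^ 6 * (79 / 32 - z) ^ 5) +
        213080268254551235092371 / 3125000 * ((z - 39 / 16) ^ 7 * (79 / 32 - z) ^ 4) +
        54031274580553189866191 / 2500000 * ((z - 39 / 16) ^ 8 * (79 / 32 - z) ^ 3) +
        20214102067782526609293 / 5000000 * ((z - 39 / 16) ^ 9 * (79 / 32 - z) ^ 2) +
        19406187592324062040597 / 50000000 * ((z - 39 / 16) ^ 10 * (79 / 32 - z)) +
        1745383860461130819767 / 100000000 * ((z - 39 / 16) ^ 11) := by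
    unfold g4
    ring
  rw [e]
  positivity

theorem g4_i13 (z : ℝ) (h1 : 79 / 32 ≤ z) (h2 : z ≤ 159 / 64) : 0 ≤ g4 z := by
  have hs : 0 ≤ z - 79 / 32 := by linarith
  have ht : 0 ≤ 159 / 64 - z := by linarith
  have e : g4 z =
      13963070883689046558136 / 390625 * ((159 / 64 - z) ^ 11) + 75141168842276771884468 / 390625 *
        ((z - 79 / 32) * (159 / 64 - z) ^ 10) + 41550318697786626213882 / 78125 * ((z - 79 / 32) ^
        2 * (159 / 64 - z) ^ 9) + 162207456390456864709799 / 78125 * ((z - 79 / 32) ^ 3 * (159 / 64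
        - z) ^ 8) + 3418970688955727234467251 / 390625 * ((z - 79 / 32) ^ 4 * (159 / 64 - z) ^ 7) +
        18692375968750068378080561 / 781250 * ((z - 79 / 32) ^ 5 * (159 / 64 - z) ^ 6) +
        64019065367334094093946113 / 1562500 * ((z - 79 / 32) ^ 6 * (159 / 64 - z) ^ 5) +
        141817960281762236592757507 / 3125000 * ((z - 79 / 32) ^ 7 * (159 / 64 - z) ^ 4) +
        409634873539843615131303283 / 12500000 * ((z - 79 / 32) ^ 8 * (159 / 64 - z) ^ 3) +
        374378052829231006408686497 / 25000000 * ((z - 79 / 32) ^ 9 * (159 / 64 - z) ^ 2) +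
        39472079225518331498359833 / 10000000 * ((z - 79 / 32) ^ 10 * (159 / 64 - z)) +
        45862666798639718115259719 / 100000000 * ((z - 79 / 32) ^ 11) := by
    unfold g4
    ring
  rw [e]
  positivity

theorem g4_i14 (z : ℝ) (h1 : 159 / 64 ≤ z) (h2 : z ≤ 5 / 2) : 0 ≤ g4 z := by
  have hs : 0 ≤ z - 159 / 64 := by linarith
  have ht : 0 ≤ 5 / 2 - z := by linarith
  have e : g4 z =
      45862666798639718115259719 / 100000000 * ((5 / 2 - z) ^ 11) + 19195558666090327611003609 /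
        3125000 * ((z - 159 / 64) * (5 / 2 - z) ^ 10) + 14425324460601545747343428 / 390625 * ((z -
        159 / 64) ^ 2 * (5 / 2 - z) ^ 9) + 2057362247446455430542208 / 15625 * ((z - 159 / 64) ^ 3
        * (5 / 2 - z) ^ 8) + 120974958896074991366725632 / 390625 * ((z - 159 / 64) ^ 4 * (5 / 2 -
        z) ^ 7) + 197282770740886016842006528 / 390625 * ((z - 159 / 64) ^ 5 * (5 / 2 - z) ^ 6) +
        227831068608455346495684608 / 390625 * ((z - 159 / 64) ^ 6 * (5 / 2 - z) ^ 5) +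
        37296144246383562104766464 / 78125 * ((z - 159 / 64) ^ 7 * (5 / 2 - z) ^ 4) +
        106097402064017312723238912 / 390625 * ((z - 159 / 64) ^ 8 * (5 / 2 - z) ^ 3) +
        7997507556356422990036992 / 78125 * ((z - 159 / 64) ^ 9 * (5 / 2 - z) ^ 2) +
        8990639642183996345942016 / 390625 * ((z - 159 / 64) ^ 10 * (5 / 2 - z)) +
        914013939506760046870528 / 390625 * ((z - 159 / 64) ^ 11) := by
    unfold g4
    ring
  rw [e]
  positivity

theorem g4_i15 (z : ℝ) (h1 : 5 / 2 ≤ z) (h2 : z ≤ 3) : 0 ≤ g4 z := by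
  have hs : 0 ≤ z - 5 / 2 := by linarith
  have ht : 0 ≤ 3 - z := by linarith
  have e : g4 z =
      6494459651 / 100000000 * ((3 - z) ^ 11) + 78313518321 / 25000000 * ((z - 5 / 2) * (3 - z) ^
        10) + 33348833643 / 625000 * ((z - 5 / 2) ^ 2 * (3 - z) ^ 9) + 5071839966531 / 12500000 *
        ((z - 5 / 2) ^ 3 * (3 - z) ^ 8) + 2706712583573 / 1562500 * ((z - 5 / 2) ^ 4 * (3 - z) ^ 7)
        + 2903647017733 / 625000 * ((z - 5 / 2) ^ 5 * (3 - z) ^ 6) + 3227606266928 / 390625 * ((z -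
        5 / 2) ^ 6 * (3 - z) ^ 5) + 3883599733008 / 390625 * ((z - 5 / 2) ^ 7 * (3 - z) ^ 4) +
        627561712384 / 78125 * ((z - 5 / 2) ^ 8 * (3 - z) ^ 3) + 1635264311296 / 390625 * ((z - 5 /
        2) ^ 9 * (3 - z) ^ 2) + 497730220032 / 390625 * ((z - 5 / 2) ^ 10 * (3 - z)) + 67329509376
        / 390625 * ((z - 5 / 2) ^ 11) := by
    unfold g4
    ring
  rw [e]
  positivity

theorem g4_nonneg (z : ℝ) (hlo : -1 ≤ z) (hhi : z ≤ 3) : 0 ≤ g4 z := by
  rcases le_total z (0) with h | k1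
  · exact g4_i0 z hlo h
  rcases le_total z (1 / 4) with h | k2
  · exact g4_i1 z k1 h
  rcases le_total z (1 / 2) with h | k3
  · exact g4_i2 z k2 h
  rcases le_total z (1) with h | k4
  · exact g4_i3 z k3 h
  rcases le_total z (3 / 2) with h | k5
  · exact g4_i4 z k4 h
  rcases le_total z (7 / 4) with h | k6
  · exact g4_i5 z k5 h
  rcases le_total z (29 / 16) with h | k7
  · exact g4_i6 z k6 h
  rcases le_total z (15 / 8) with h | k8
  · exact g4_i7 z k7 h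
  rcases le_total z (2) with h | k9
  · exact g4_i8 z k8 h
  rcases le_total z (9 / 4) with h | k10
  · exact g4_i9 z k9 h
  rcases le_total z (19 / 8) with h | k11
  · exact g4_i10 z k10 h
  rcases le_total z (39 / 16) with h | k12
  · exact g4_i11 z k11 h
  rcases le_total z (79 / 32) with h | k13
  · exact g4_i12 z k12 h
  rcases le_total z (159 / 64) with h | k14
  · exact g4_i13 z k13 h
  rcases le_total z (5 / 2) with h | k15
  · exact g4_i14 z k14 h
  exact g4_i15 z k15 hhi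

theorem L4_le (Z : ℝ) (h0 : 0 < Z) (h4 : Z ≤ 4) : L4 (Z - 1) * Z ^ 4 ≤ 1 := by
  have h := L4_fac (Z - 1)
  have hg := g4_nonneg (Z - 1) (by linarith) (by linarith)
  have hz : 0 ≤ (Z - 1) ^ 2 := by positivity
  have e : 1 + (Z - 1) = Z := by ring
  rw [e] at h
  have := mul_nonneg hz hg
  linarith

end Vale.Agent.P154.T4
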