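import Vale.Agent.P154.T4.Chk
import Vale.Agent.P154.T4.Link
import Vale.Agent.P154.T4.Min1
import Vale.Agent.P154.T4.Min2
import Vale.Agent.P154.T4.Min3
import Vale.Agent.P154.T4.Min4
import Vale.Agent.P154.R4W.Asm5
import Vale.Agent.P154.R4K.C4Low

/-!
# P154 q = 4: the closure inequality (C4) on `T × T` for the class function `ps5 (87/40) (3/5)`

`keyC`: `cT b * ps5 (87/40) (3/5) a + cT a * ps5 (87/40) (3/5) b ≤ avQ (KQ (ps5 (87/40) (3/5)) a) b`, and `cT ≥ 0` on `T`.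
(Certificate: helper46, degree 14, 462400 coefficients; `p2 = S2/4`, `m = S3/24`, `s4 = 3 S2^2/32 - S4/8`, `S_n` the power sums;
`c = 1 - (793/500) p2 - (31/10) m + (3899/1000) p2^2 - (2103/500) s4 - (6793/1000) p2 m - (111/100) p2^3 + (384/25) m^2
+ (2163/1000) p2 s4`.)
-/

namespace Vale.Agent.P154.T4

open Finset Vale.Agent.Util.Polya Vale.Agent.P154

/-- the multiplier -/
noncomputable def cT (a : Fin 4 → ℝ) : ℝ :=
  1 - 793 / 2000 * (∑ i, a i ^ 2) - 31 / 240 * (∑ i, a i ^ 3) - 241 / 1600 * (∑ i, a i ^ 2) ^ 2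
    + 2103 / 4000 * (∑ i, a i ^ 4) - 6793 / 96000 * ((∑ i, a i ^ 2) * ∑ i, a i ^ 3)
    + 4269 / 128000 * (∑ i, a i ^ 2) ^ 3 + 2 / 75 * (∑ i, a i ^ 3) ^ 2
    - 2163 / 32000 * ((∑ i, a i ^ 2) * ∑ i, a i ^ 4)

theorem sideP (a : Fin 4 → ℝ) (ha : DT 1 a) : SideT (fun i => (1 + a i) / 4) 0 1 1 := by
  refine ⟨fun i => (1 + a i) / 4, fun i => by have := ha.2 i; linarith, ?_, fun i => by push_cast; ring⟩
  rw [← Finset.sum_div, Finset.sum_add_distrib, ha.1]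
  simp

theorem lXp (a : Fin 4 → ℝ) :
    sm 14 Xp ((1 + a 0) / 4) ((1 + a 1) / 4) ((1 + a 2) / 4) ((1 + a 3) / 4) 1 =
      -18000000 * ps5 (87 / 40) (3 / 5) a := by
  have h := sm_eq_of_pit4 35 7 14 Xp (.v 0) (.v 1) (.v 2) (.v 3) (.c 1) tXp hpitXp
    (fun i => (1 + a i) / 4)
  simp only [PE.ev, Int.cast_one] at h
  rw [h, tXp, ev_sideE _ a _ _ _ _ _ _ _ _ _ (fun i => by push_cast; ring), ps5_eq]
  unfold alQ
  push_cast
  ring

theorem lXc (a : Fin 4 → ℝ) :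
    sm 14 Xc ((1 + a 0) / 4) ((1 + a 1) / 4) ((1 + a 2) / 4) ((1 + a 3) / 4) 1 = 1152000 * cT a := by
  have h := sm_eq_of_pit4 39 7 14 Xc (.v 0) (.v 1) (.v 2) (.v 3) (.c 1) tXc hpitXc
    (fun i => (1 + a i) / 4)
  simp only [PE.ev, Int.cast_one] at h
  rw [h, tXc, ev_sideE _ a _ _ _ _ _ _ _ _ _ (fun i => by push_cast; ring)]
  unfold cT
  push_cast
  ring

theorem lLd (u : Fin 4 → ℝ) :
    sm 14 Ld (u 0 / 4) (u 1 / 4) (u 2 / 4) (u 3 / 4) 1 =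
      864000000000 * lbS5 (87 / 40) (3 / 5) u (L1 (e1Q u - 1)) (L2 (e1Q u - 1)) (L3 (e1Q u - 1))
        (L4 (e1Q u - 1)) := by
  have e1 : e1Q (fun i => u i / 4) = e1Q u / 4 := by unfold e1Q; ring
  have e2 : e2Q (fun i => u i / 4) = e2Q u / 16 := by unfold e2Q; ring
  have e3 : e3Q (fun i => u i / 4) = e3Q u / 64 := by unfold e3Q; ring
  have h1 := sm_of_pit 46 1 Ld1 Tg1 hdeg1 hpit1 (fun i => u i / 4)
  have h2 := sm_of_pit 55 2 Ld2 Tg2 hdeg2 hpit2 (fun i => u i / 4)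
  have h3 := sm_of_pit 61 3 Ld3 Tg3 hdeg3 hpit3 (fun i => u i / 4)
  have h4 := sm_of_pit 67 4 Ld4 Tg4 hdeg4 hpit4 (fun i => u i / 4)
  have h5 := sm_of_pit 72 5 Ld5 Tg5 hdeg5 hpit5 (fun i => u i / 4)
  have h6 := sm_of_pit 77 6 Ld6 Tg6 hdeg6 hpit6 (fun i => u i / 4)
  have h7 := sm_of_pit 81 7 Ld7 Tg7 hdeg7 hpit7 (fun i => u i / 4)
  have h8 := sm_of_pit 85 8 Ld8 Tg8 hdeg8 hpit8 (fun i => u i / 4)
  have h9 := sm_of_pit 88 9 Ld9 Tg9 hdeg9 hpit9 (fun i => u i / 4)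
  have h10 := sm_of_pit 90 10 Ld10 Tg10 hdeg10 hpit10 (fun i => u i / 4)
  have h11 := sm_of_pit 92 11 Ld11 Tg11 hdeg11 hpit11 (fun i => u i / 4)
  have h12 := sm_of_pit 94 12 Ld12 Tg12 hdeg12 hpit12 (fun i => u i / 4)
  have h13 := sm_of_pit 94 13 Ld13 Tg13 hdeg13 hpit13 (fun i => u i / 4)
  have h14 := sm_of_pit 94 14 Ld14 Tg14 hdeg14 hpit14 (fun i => u i / 4)
  simp only [e1, e2, e3] at h1 h2 h3 h4 h5 h6 h7 h8 h9 h10 h11 h12 h13 h14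
  unfold Ld
  simp only [sm_append]
  rw [h1, h2, h3, h4, h5, h6, h7, h8, h9, h10, h11, h12, h13, h14]
  unfold lbS5 L1 L2 L3 L4
  generalize e1Q u = Z
  generalize e2Q u = E2
  generalize e3Q u = E3
  simp only [tgR, Tg1, Tg2, Tg3, Tg4, Tg5, Tg6, Tg7, Tg8, Tg9, Tg10, Tg11, Tg12, Tg13, Tg14]
  push_cast
  ring

theorem cT_nonneg (a : Fin 4 → ℝ) (ha : DT 1 a) : 0 ≤ cT a := by
  have h := sm_nonneg_of_check 76 15 14 0 1 Xc (by norm_num) (by norm_num) cgood cbnd cchk _ 1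
    (sideP a ha)
  simp only [lXc] at h
  linarith

/-- **the closure inequality (C4)** on `T × T` -/
theorem keyC (a b : Fin 4 → ℝ) (ha : DT 1 a) (hb : DT 1 b) (hb1 : ∀ i, -1 < b i) :
    cT b * ps5 (87 / 40) (3 / 5) a + cT a * ps5 (87 / 40) (3 / 5) b
      ≤ avQ (KQ (ps5 (87 / 40) (3 / 5)) a) b := by
  have hg := hgood
  have hb2 := hbnd
  have hc := hchk
  unfold cert at hg hb2 hc
  have hM := masterG 152 15 14 0 1 0 1 Ld [Xp, Xc] [Xc, Xp] (by norm_num) (by norm_num) hg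
    hb2 hc _ _ 1 1 (sideP a ha) (sideP b hb)
  simp only [List.map_cons, List.map_nil, dotRR, lXp, lXc, mul_one, add_zero] at hM
  have hlow : ∀ σ : Equiv.Perm (Fin 4),
      sm 14 Ld ((1 + a 0) / 4 * ((1 + b (σ 0)) / 4)) ((1 + a 1) / 4 * ((1 + b (σ 1)) / 4))
        ((1 + a 2) / 4 * ((1 + b (σ 2)) / 4)) ((1 + a 3) / 4 * ((1 + b (σ 3)) / 4)) 1
        / 864000000000 ≤ KQ (ps5 (87 / 40) (3 / 5)) a (fun i => b (σ i)) := by
    intro σ
    have e : ∀ i, (1 + a i) / 4 * ((1 + b (σ i)) / 4) = uQ a (fun i => b (σ i)) i / 4 := by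
      intro i
      unfold uQ
      ring
    rw [e 0, e 1, e 2, e 3, lLd, mul_div_cancel_left₀ _ (by norm_num)]
    exact lbS5_le (87 / 40) (3 / 5) (by norm_num) (by norm_num) (by norm_num)
      (fun Z => L1 (Z - 1)) (fun Z => L2 (Z - 1)) (fun Z => L3 (Z - 1)) (fun Z => L4 (Z - 1))
      L1_le L2_le L3_le L4_le a _ ha (dt_permG 1 b hb σ) (fun i => hb1 (σ i))
  have hav := avQ_ge_of_forall (KQ (ps5 (87 / 40) (3 / 5)) a) b _ hlow
  rw [← Finset.sum_div] at hav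
  refine le_trans ?_ hav
  rw [div_div, le_div_iff₀ (by norm_num)]
  linarith

end Vale.Agent.P154.T4
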